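import Vale.Agent.P034.Reduce

/-! # P034: the integral and fractional expectation thresholds agree up to a universal constant -/

namespace Vale.Agent.Results.P034.ConstantFactor

open Finset

section Defs

variable {X : Type*} [Fintype X] [DecidableEq X]

/-- `𝒢` covers `F`: every member of `F` contains a member of `𝒢`. -/
def Covers (𝒢 F : Finset (Finset X)) : Prop := ∀ H ∈ F, ∃ S ∈ 𝒢, S ⊆ H

/-- `F` is `p`-small: some cover has cost `∑_{S ∈ 𝒢} p^{|S|}` at most `1/2`. -/
def PSmall (p : ℝ) (F : Finset (Finset X)) : Prop :=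
  ∃ 𝒢 : Finset (Finset X), Covers 𝒢 F ∧ ∑ S ∈ 𝒢, p ^ S.card ≤ 1 / 2

/-- `g : 2^X → [0,1]` is a fractional cover of `F`. -/
def FracCover (g : Finset X → ℝ) (F : Finset (Finset X)) : Prop :=
  (∀ S, 0 ≤ g S ∧ g S ≤ 1) ∧ ∀ H ∈ F, 1 ≤ ∑ S ∈ H.powerset, g S

/-- `F` is fractionally `p`-small: some fractional cover has cost `∑_S g(S) p^{|S|}` at most
`1/2`. -/
def FracPSmall (p : ℝ) (F : Finset (Finset X)) : Prop :=
  ∃ g : Finset X → ℝ, FracCover g F ∧ ∑ S, g S * p ^ S.card ≤ 1 / 2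

/-- the integral expectation threshold `q(F)`. -/
noncomputable def qInt (F : Finset (Finset X)) : ℝ := sSup {p : ℝ | 0 ≤ p ∧ p ≤ 1 ∧ PSmall p F}

/-- the fractional expectation threshold `q_f(F)`. -/
noncomputable def qFrac (F : Finset (Finset X)) : ℝ :=
  sSup {p : ℝ | 0 ≤ p ∧ p ≤ 1 ∧ FracPSmall p F}

end Defs

/-- Talagrand's conjecture: `q_f(F) ≤ K q(F)` with a universal constant `K`, for every nonempty
proper increasing family `F` of subsets of a finite set. -/
theorem result : ∃ K : ℝ, 0 < K ∧ ∀ (X : Type) [Fintype X] [DecidableEq X] [Nonempty X]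
    (F : Finset (Finset X)), F.Nonempty → ∅ ∉ F →
    (∀ A ∈ F, ∀ B : Finset X, A ⊆ B → B ∈ F) → qFrac F ≤ K * qInt F := by
  refine ⟨2 ^ 245, by positivity, ?_⟩
  intro X _ _ _ F _ hF _
  have hbdd : BddAbove {p : ℝ | 0 ≤ p ∧ p ≤ 1 ∧ PSmall p F} := ⟨1, fun p hp => hp.2.1⟩
  refine csSup_le ?_ ?_
  · refine ⟨0, le_rfl, zero_le_one, fun S => if S = ∅ then 0 else 1, ⟨?_, ?_⟩, ?_⟩
    · intro S
      by_cases hS : S = ∅ <;> simp [hS]
    · intro H hH
      have hne : H ≠ ∅ := fun h => hF (h ▸ hH)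
      have : (if H = ∅ then (0 : ℝ) else 1) ≤ ∑ S ∈ H.powerset, (if S = ∅ then (0 : ℝ) else 1) :=
        Finset.single_le_sum (f := fun S : Finset X => if S = ∅ then (0 : ℝ) else 1)
          (fun S _ => by by_cases hS : S = ∅ <;> simp [hS]) (Finset.mem_powerset_self H)
      rwa [if_neg hne] at this
    · have : ∑ S : Finset X, (if S = ∅ then (0 : ℝ) else 1) * 0 ^ S.card = 0 := by
        refine Finset.sum_eq_zero (fun S _ => ?_)
        by_cases hS : S = ∅
        · simp [hS]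
        · have : S.card ≠ 0 := fun h => hS (Finset.card_eq_zero.mp h)
          simp [zero_pow this]
      rw [this]; norm_num
  · rintro p ⟨hp0, hp1, g, ⟨hg, hgF⟩, hcost⟩
    rcases hp0.eq_or_lt with h0 | hpos
    · rw [← h0]
      refine mul_nonneg (by positivity) ?_
      exact Real.sSup_nonneg (fun x hx => hx.1)
    · obtain ⟨𝒢, hc, hcov⟩ := Vale.Agent.P034.frac_to_int (fun S => (hg S).1) hpos hp1 hcost
      have hmem : p / 2 ^ 245 ∈ {p : ℝ | 0 ≤ p ∧ p ≤ 1 ∧ PSmall p F} := by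
        refine ⟨by positivity, ?_, 𝒢, fun H hH => hcov H (hgF H hH), hc⟩
        rw [div_le_one (by positivity)]
        exact hp1.trans (by norm_num)
      have := le_csSup hbdd hmem
      unfold qInt
      rw [div_le_iff₀ (by positivity)] at this
      linarith

end Vale.Agent.Results.P034.ConstantFactor
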